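import Vale.Agent.Lib.P072.BalDZMain
import Vale.Agent.Lib.P072.VertMain

/-!
# P072: a strongly connected class joined with a deficiency-zero or complex-balanced system

Let `N₁` and `N₂` be mass-action systems on the same species such that `N₁` is strongly
connected (weakly reversible with one linkage class), every reaction vector of `N₂` lies in the
stoichiometric subspace of `N₁`, and `N₂` is weakly reversible of deficiency zero or, more
generally, complex balanced at some positive point. Then in the union of the two systems, on
every positive stoichiometric class, solutions exist for all times, stay in the class and are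
bounded. For permanence on the class of `c`, consider the boundary points `z` of the nonnegative
part of `c + stoich` whose zero set is a siphon of the union (the monomial of the target complex
of a reaction is nonzero at `z` whenever the monomial of its source complex is); other boundary
points play no role. Call a reaction of `N₂` inactive at `z` if the monomial of its source
complex vanishes at `z`. The union is permanent on the class of `c` if at every such `z` the
inactive reactions change no species that an active reaction of `N₂` changes, and no nonzero
vector of the span of the inactive reaction vectors vanishes on the zero set of `z` (a vertex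
condition). In particular it is enough that no nonzero vector of the stoichiometric subspace of
`N₂` vanishes on the zero set of `z`, and the condition is void at the points `z` at which no
monomial of a source complex of `N₂` vanishes. The union is permanent on every class if every
nonzero vector of the stoichiometric subspace of `N₂` is nonzero on all species of some source
complex of `N₁`, for instance if the zero complex is a source complex of `N₁`, or if every
species has a source complex of `N₁` that consists of that species alone. The union is weakly
reversible as soon as `N₂` is.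
-/

namespace Vale.Agent.Results.P072.BalancedRestVertexPermanence

open Vale.Agent.Lib.P072

theorem result {R₁ R₂ ι : Type} [Fintype R₁] [Fintype R₂] [Fintype ι]
    (N₁ : MAS R₁ ι) (N₂ : MAS R₂ ι)
    (h₁ : N₁.StronglyConnected) (hS : N₂.stoich ≤ N₁.stoich)
    (h₂ : (N₂.WeaklyReversible ∧ N₂.DeficiencyZero) ∨
      ∃ xs : ι → ℝ, (∀ i, 0 < xs i) ∧ N₂.ComplexBalancedAt xs) :
    (N₂.WeaklyReversible → (N₁.union N₂).WeaklyReversible) ∧
    (∀ c : ι → ℝ, (N₁.union N₂).BoundedOn ((N₁.union N₂).posClass c)) ∧
    (∀ c : ι → ℝ,
      (∀ z : ι → ℝ, (∀ i, 0 ≤ z i) → z - c ∈ (N₁.union N₂).stoich → (∃ i, z i = 0) →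
        (∀ r, mono ((N₁.union N₂).src r) z ≠ 0 → mono ((N₁.union N₂).tgt r) z ≠ 0) →
        (∀ r r', mono (N₂.src r) z = 0 → mono (N₂.src r') z ≠ 0 →
          ∀ j, N₂.vec r j ≠ 0 → N₂.vec r' j = 0) ∧
        ∀ s ∈ Submodule.span ℝ (N₂.vec '' {r | mono (N₂.src r) z = 0}),
          (∀ i, z i = 0 → s i = 0) → s = 0) →
      (N₁.union N₂).PermanentOn ((N₁.union N₂).posClass c)) ∧
    ((∀ s ∈ N₂.stoich, s ≠ 0 → ∃ r, ∀ i, 0 < N₁.src r i → s i ≠ 0) →
      ∀ c : ι → ℝ, (N₁.union N₂).PermanentOn ((N₁.union N₂).posClass c)) := by
  have hcb : ∃ xs : ι → ℝ, (∀ i, 0 < xs i) ∧ N₂.ComplexBalancedAt xs := by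
    rcases h₂ with ⟨hwr, hdz⟩ | h
    · exact deficiencyZero_complexBalanced N₂ hwr hdz
    · exact h
  obtain ⟨xs, hxs, hcb⟩ := hcb
  exact ⟨union_weaklyReversible N₁ N₂ h₁,
    fun c => union_boundedOn N₁ N₂ xs hxs h₁ hS hcb c,
    fun c hz => union_permanentOn_of_siphon N₁ N₂ xs hxs h₁ hS hcb c hz,
    fun hs c => union_permanentOn_of_supports N₁ N₂ xs hxs h₁ hS hcb hs c⟩

end Vale.Agent.Results.P072.BalancedRestVertexPermanence
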