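import Vale.Agent.Lib.P072.PoolData

/-!
# P072: permanence for constant and for time-dependent rates, conservative systems with
dominated outflow

Let `N` be a mass-action system with a positive linear conservation law and with dominated
outflow: for every set `A` of species there are positive weights `w` on `A` such that every
reaction that decreases the pool `∑ i ∈ A, w i * x i` is matched by a reaction that increases it
and whose source complex contains at most as many molecules of every species of `A`, and
strictly fewer of one of them. Then on the positive stoichiometric class of every positive
point, `N` is permanent, and it is permanent for all measurable rate functions with values in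
`[ε, ε⁻¹]` replacing its rate constants, with a compact set that does not depend on the rate
functions. Weak reversibility is not assumed; the hypotheses hold for weakly reversible systems
whose linkage classes are catalysed first-order networks (`firstOrderClasses_conservative`,
`firstOrderClasses_dominatedOutflow`) and for conservative weakly reversible systems whose
linkage classes lie on binary lines (`binaryLines_dominatedOutflow`).
-/

namespace Vale.Agent.Results.P072.DominatedOutflowAllRates

open Vale.Agent.Lib.P072

theorem result {R ι : Type} [Fintype R] [Fintype ι] (N : MAS R ι)
    (hC : N.Conservative) (hD : N.DominatedOutflow) (c : ι → ℝ) (hc : ∀ i, 0 < c i) :
    N.PermanentOn (N.posClass c) ∧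
      ∀ ε : ℝ, 0 < ε → N.StronglyPermanentOn ε (N.posClass c) :=
  ⟨dominatedOutflow_permanentOn N hC hD c hc,
    fun _ hε => dominatedOutflow_stronglyPermanentOn N hC hD hε c hc⟩

end Vale.Agent.Results.P072.DominatedOutflowAllRates
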