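import Vale.Agent.Lib.P072.TVLine
import Vale.Agent.Lib.P072.MColTMain

/-!
# P072: permanence for constant and for time-dependent rates, linkage classes on lines

(A) Let `N` be a weakly reversible mass-action system in which every linkage class lies on a
line, the directions of any two linkage classes being equal or disjointly supported. Then on
the positive stoichiometric class of every positive point, `N` is permanent, and it is
permanent for all measurable rate functions with values in `[ε, ε⁻¹]` replacing its rate
constants, with a compact set that does not depend on the rate functions.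

(B) Let `N₁` be strongly connected (weakly reversible with one linkage class) and let `N₂` be
a system as in (A), every reaction vector of `N₂` lying in the stoichiometric subspace of
`N₁`. Then the union of the two systems is weakly reversible and permanent on every positive
stoichiometric class,
for its rate constants and for all measurable rate functions with values in `[ε, ε⁻¹]`
replacing them, with a compact set that does not depend on the rate functions. For `N₂`
without reactions this is the permanence theorem for weakly reversible systems with one
linkage class; a system `N₂` all of whose reaction vectors are multiples of one vector is an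
instance.
-/

namespace Vale.Agent.Results.P072.LineClassesAllRates

open Vale.Agent.Lib.P072

theorem result :
    (∀ (R ι : Type) [Fintype R] [Fintype ι] (N : MAS R ι),
      N.WeaklyReversible → N.LineClasses → ∀ c : ι → ℝ, (∀ i, 0 < c i) →
        N.PermanentOn (N.posClass c) ∧
          ∀ ε : ℝ, 0 < ε → N.StronglyPermanentOn ε (N.posClass c)) ∧
    (∀ (R₁ R₂ ι : Type) [Fintype R₁] [Fintype R₂] [Fintype ι]
      (N₁ : MAS R₁ ι) (N₂ : MAS R₂ ι),
      N₁.StronglyConnected → N₂.WeaklyReversible → N₂.LineClasses →
      N₂.stoich ≤ N₁.stoich →
      (N₁.union N₂).WeaklyReversible ∧
      ∀ c : ι → ℝ, (N₁.union N₂).PermanentOn ((N₁.union N₂).posClass c) ∧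
        ∀ ε : ℝ, 0 < ε → (N₁.union N₂).StronglyPermanentOn ε ((N₁.union N₂).posClass c)) :=
  ⟨fun _ _ _ _ N hwr hL c hc => ⟨lineClasses_permanentOn N hwr hL c hc,
      fun _ hε => lineClasses_stronglyPermanentOn N hwr hL hε c hc⟩,
    fun _ _ _ _ _ _ N₁ N₂ h₁ hwr hL hS =>
      ⟨union_weaklyReversible N₁ N₂ h₁ hwr, fun c =>
        ⟨union_permanentOn_of_lineClasses N₁ N₂ h₁ hS hwr hL c,
          fun _ hε => union_stronglyPermanentOn_of_lineClasses N₁ N₂ h₁ hS hwr hL hε c⟩⟩⟩

end Vale.Agent.Results.P072.LineClassesAllRates
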