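import Vale.Agent.Lib.P072.BalDZMain
import Vale.Agent.Lib.P072.VertMain
import Vale.Agent.Lib.P072.TVLine
import Vale.Agent.Lib.P072.MColTMain

/-!
# P072: a strongly connected class joined with a complex-balanced system or with linkage
classes on lines; linkage classes on lines alone

(A) Let `N₁` be strongly connected (weakly reversible with one linkage class) and let every
reaction vector of `N₂` lie in the stoichiometric subspace of `N₁`.

(1) If `N₂` is weakly reversible of deficiency zero or, more generally, complex balanced at
some positive point, then in the union of the two systems, on every positive stoichiometric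
class, solutions exist for all times, stay in the class and are bounded; and the union is
permanent on every class if every nonzero vector of the stoichiometric subspace of `N₂` is
nonzero on all species of some source complex of `N₁` (for instance if the zero complex is a
source complex of `N₁`).

(2) If `N₂` is weakly reversible and every linkage class of `N₂` lies on a line, the directions
of any two linkage classes being equal or disjointly supported, then the union is permanent on
every positive stoichiometric class.

(B) A weakly reversible system in which every linkage class lies on a line, the directions of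
any two linkage classes being equal or disjointly supported, is permanent on the positive
stoichiometric class of every positive point.

The three statements are the constant-rate parts of the theorems of the files
`BalancedRestVertexPermanence` and `LineClassesAllRates` of this folder.
-/

namespace Vale.Agent.Results.P072.StronglyConnectedPlusRest

open Vale.Agent.Lib.P072

theorem result :
    (∀ (R₁ R₂ ι : Type) [Fintype R₁] [Fintype R₂] [Fintype ι]
      (N₁ : MAS R₁ ι) (N₂ : MAS R₂ ι),
      N₁.StronglyConnected → N₂.stoich ≤ N₁.stoich →
      (((N₂.WeaklyReversible ∧ N₂.DeficiencyZero) ∨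
          ∃ xs : ι → ℝ, (∀ i, 0 < xs i) ∧ N₂.ComplexBalancedAt xs) →
        (∀ c : ι → ℝ, (N₁.union N₂).BoundedOn ((N₁.union N₂).posClass c)) ∧
        ((∀ s ∈ N₂.stoich, s ≠ 0 → ∃ r, ∀ i, 0 < N₁.src r i → s i ≠ 0) →
          ∀ c : ι → ℝ, (N₁.union N₂).PermanentOn ((N₁.union N₂).posClass c))) ∧
      (N₂.WeaklyReversible → N₂.LineClasses →
        ∀ c : ι → ℝ, (N₁.union N₂).PermanentOn ((N₁.union N₂).posClass c))) ∧
    (∀ (R ι : Type) [Fintype R] [Fintype ι] (N : MAS R ι),
      N.WeaklyReversible → N.LineClasses → ∀ c : ι → ℝ, (∀ i, 0 < c i) →
        N.PermanentOn (N.posClass c)) := by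
  refine ⟨fun R₁ R₂ ι _ _ _ N₁ N₂ h₁ hS => ⟨fun h₂ => ?_, fun hwr hL c =>
      union_permanentOn_of_lineClasses N₁ N₂ h₁ hS hwr hL c⟩,
    fun R ι _ _ N hwr hL c hc => lineClasses_permanentOn N hwr hL c hc⟩
  have hcb : ∃ xs : ι → ℝ, (∀ i, 0 < xs i) ∧ N₂.ComplexBalancedAt xs := by
    rcases h₂ with ⟨hwr, hdz⟩ | h
    · exact deficiencyZero_complexBalanced N₂ hwr hdz
    · exact h
  obtain ⟨xs, hxs, hcb⟩ := hcb
  exact ⟨fun c => union_boundedOn N₁ N₂ xs hxs h₁ hS hcb c,
    fun hs c => union_permanentOn_of_supports N₁ N₂ xs hxs h₁ hS hcb hs c⟩

end Vale.Agent.Results.P072.StronglyConnectedPlusRest
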